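/-
P235-M, MIXING, helper620.  The linear mixing lemma at the LCA cut (STEP 4' of helper882's row
2684; found at the same time by helper874, helper276, helper828 and helper620; only helper347's
step 2, `FF_le`, is used).

A node `node l r` with a Bruhat-increasing law, `X` = a suffix of the left child, `Y` = a prefix of
the right child: `E max (r_X) (r_Y) ≤ 10 E r_{XY}` at every level.
-/
import Vale.Agent.P235.R2.H549.Gamma
import Vale.Agent.P235.R2.H347.Mix

namespace VPBruhat

open Equiv Finset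
open scoped Pointwise

/-! ### three sets of the same size -/

section sets

variable {β : Type*} [Fintype β] [DecidableEq β]

/-- `t = (i, j)`: `i` is in `A` but not in `S`, `j` is in `S` but not in `A` -/
def ex (S A : Finset β) (t : β × β) : ℝ := if t.1 ∈ A \ S ∧ t.2 ∈ S \ A then 1 else 0

omit [Fintype β] in
theorem ex_nonneg (S A : Finset β) (t : β × β) : 0 ≤ ex S A t := by
  unfold ex; split_ifs <;> norm_num

omit [Fintype β] in
theorem ex_le_one (S A : Finset β) (t : β × β) : ex S A t ≤ 1 := by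
  unfold ex; split_ifs <;> norm_num

theorem sum_ex (S A : Finset β) :
    ∑ t : β × β, ex S A t = ((A \ S).card : ℝ) * ((S \ A).card : ℝ) := by
  have h : ∀ t : β × β, ex S A t = if t ∈ (A \ S) ×ˢ (S \ A) then (1 : ℝ) else 0 := by
    intro t; unfold ex; simp only [Finset.mem_product]
  rw [Finset.sum_congr rfl fun t _ => h t, Finset.sum_ite_mem, Finset.univ_inter,
    Finset.sum_const, Finset.card_product]
  simp

theorem sum_ex_not (S A B : Finset β) :
    ∑ t : β × β, ex S A t * (1 - ex S B t) ≤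
      ((A \ B).card : ℝ) * ((S \ A).card : ℝ) + ((A \ S).card : ℝ) * ((B \ A).card : ℝ) := by
  have h : ∀ t : β × β, ex S A t * (1 - ex S B t) ≤
      (if t ∈ (A \ B) ×ˢ (S \ A) then (1 : ℝ) else 0) +
        (if t ∈ (A \ S) ×ˢ (B \ A) then (1 : ℝ) else 0) := by
    intro t
    unfold ex
    by_cases h1 : t.1 ∈ A \ S ∧ t.2 ∈ S \ A
    · by_cases h2 : t.1 ∈ B \ S ∧ t.2 ∈ S \ B
      · rw [if_pos h1, if_pos h2]
        simp only [sub_self, mul_zero]
        positivity
      · rw [if_pos h1, if_neg h2]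
        simp only [Finset.mem_sdiff] at h1 h2
        by_cases h3 : t.1 ∈ B
        · have h4 : t.2 ∈ B := by
            by_contra h5
            exact h2 ⟨⟨h3, h1.1.2⟩, h1.2.1, h5⟩
          have : t ∈ (A \ S) ×ˢ (B \ A) := by
            simp only [Finset.mem_product, Finset.mem_sdiff]
            exact ⟨h1.1, h4, h1.2.2⟩
          rw [if_pos this]
          have : (0 : ℝ) ≤ if t ∈ (A \ B) ×ˢ (S \ A) then (1 : ℝ) else 0 := by
            split_ifs <;> norm_num
          linarith
        · have : t ∈ (A \ B) ×ˢ (S \ A) := by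
            simp only [Finset.mem_product, Finset.mem_sdiff]
            exact ⟨⟨h1.1.1, h3⟩, h1.2⟩
          rw [if_pos this]
          have : (0 : ℝ) ≤ if t ∈ (A \ S) ×ˢ (B \ A) then (1 : ℝ) else 0 := by
            split_ifs <;> norm_num
          linarith
    · rw [if_neg h1, zero_mul]
      positivity
  refine (Finset.sum_le_sum fun t _ => h t).trans (le_of_eq ?_)
  rw [Finset.sum_add_distrib, Finset.sum_ite_mem, Finset.sum_ite_mem, Finset.univ_inter,
    Finset.univ_inter, Finset.sum_const, Finset.sum_const, Finset.card_product,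
    Finset.card_product]
  simp

/-- the deterministic inequality -/
theorem max_le_ex (S A B : Finset β) (hA : A.card = S.card) (hB : B.card = S.card) {x y w : ℝ}
    (hx : ((A \ S).card : ℝ) = x) (hy : ((B \ S).card : ℝ) = y) (hw : ((A \ B).card : ℝ) = w) :
    max x y ≤ (max x y)⁻¹ * ∑ t : β × β, ex S A t * ex S B t + 2 * w := by
  have cx : ((S \ A).card : ℝ) = x := by
    rw [← hx]; exact_mod_cast (Finset.card_sdiff_comm hA.symm)
  have cy : ((S \ B).card : ℝ) = y := by
    rw [← hy]; exact_mod_cast (Finset.card_sdiff_comm hB.symm)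
  have cw : ((B \ A).card : ℝ) = w := by
    rw [← hw]; exact_mod_cast (Finset.card_sdiff_comm (hB.trans hA.symm))
  have x0 : 0 ≤ x := by rw [← hx]; positivity
  have y0 : 0 ≤ y := by rw [← hy]; positivity
  have w0 : 0 ≤ w := by rw [← hw]; positivity
  have e1 : x * x - 2 * (x * w) ≤ ∑ t : β × β, ex S A t * ex S B t := by
    have h1 := sum_ex S A
    have h2 := sum_ex_not S A B
    rw [hx, cx] at h1
    rw [hx, cx, hw, cw] at h2
    have h3 : ∑ t : β × β, ex S A t * (1 - ex S B t) =
        ∑ t : β × β, ex S A t - ∑ t : β × β, ex S A t * ex S B t := by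
      rw [← Finset.sum_sub_distrib]
      exact Finset.sum_congr rfl fun t _ => by ring
    nlinarith
  have e2 : y * y - 2 * (y * w) ≤ ∑ t : β × β, ex S A t * ex S B t := by
    have h1 := sum_ex S B
    have h2 := sum_ex_not S B A
    rw [hy, cy] at h1
    rw [hy, cy, hw, cw] at h2
    have h3 : ∑ t : β × β, ex S B t * (1 - ex S A t) =
        ∑ t : β × β, ex S B t - ∑ t : β × β, ex S A t * ex S B t := by
      rw [← Finset.sum_sub_distrib]
      exact Finset.sum_congr rfl fun t _ => by ring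
    nlinarith
  have key : ∀ M : ℝ, 0 ≤ M → M * M - 2 * (M * w) ≤ ∑ t : β × β, ex S A t * ex S B t →
      M ≤ M⁻¹ * ∑ t : β × β, ex S A t * ex S B t + 2 * w := by
    intro M hM h
    rcases hM.eq_or_lt with h0 | h0
    · rw [← h0]; simp only [inv_zero, zero_mul, zero_add]; linarith
    · have h1 := mul_le_mul_of_nonneg_left h (inv_nonneg.2 hM)
      have h2 : M⁻¹ * (M * M - 2 * (M * w)) = M - 2 * w := by
        field_simp
      linarith
  rcases le_total x y with h | h
  · rw [max_eq_right h]; exact key y y0 e2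
  · rw [max_eq_left h]; exact key x x0 e1

end sets

/-! ### fluxes as set differences -/

section fluxes

variable {n : ℕ}

/-- the positions below the level `a` -/
def lowS (n a : ℕ) : Finset (Fin n) := Finset.univ.filter fun x => (x : ℕ) < a

/-- the positions at the end of `X` of the strands which start below `a` -/
def fromS (a : ℕ) (X : Perm (Fin n)) : Finset (Fin n) :=
  Finset.univ.filter fun i => ((X⁻¹ i : Fin n) : ℕ) < a

/-- the positions at the start of `Y` of the strands which end below `a` -/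
def toS (a : ℕ) (Y : Perm (Fin n)) : Finset (Fin n) :=
  Finset.univ.filter fun i => ((Y i : Fin n) : ℕ) < a

theorem card_fromS (a : ℕ) (X : Perm (Fin n)) : (fromS a X).card = (lowS n a).card := by
  refine Finset.card_bij' (fun i _ => X⁻¹ i) (fun i _ => X i) ?_ ?_ ?_ ?_
  · intro i hi; simpa [fromS, lowS] using hi
  · intro i hi; simpa [fromS, lowS] using hi
  · intro i _; simp
  · intro i _; simp

theorem card_toS (a : ℕ) (Y : Perm (Fin n)) : (toS a Y).card = (lowS n a).card := by
  refine Finset.card_bij' (fun i _ => Y i) (fun i _ => Y⁻¹ i) ?_ ?_ ?_ ?_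
  · intro i hi; simpa [toS, lowS] using hi
  · intro i hi; simpa [toS, lowS] using hi
  · intro i _; simp
  · intro i _; simp

theorem card_from_low (a : ℕ) (X : Perm (Fin n)) : (fromS a X \ lowS n a).card = flux a X := by
  unfold flux
  refine Finset.card_bij' (fun i _ => X⁻¹ i) (fun i _ => X i) ?_ ?_ ?_ ?_
  · intro i hi; simpa [fromS, lowS] using hi
  · intro i hi; simpa [fromS, lowS] using hi
  · intro i _; simp
  · intro i _; simp

theorem card_low_to (a : ℕ) (Y : Perm (Fin n)) : (lowS n a \ toS a Y).card = flux a Y := by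
  unfold flux
  congr 1
  ext i
  simp [toS, lowS]

theorem card_from_to (a : ℕ) (X Y : Perm (Fin n)) :
    (fromS a X \ toS a Y).card = flux a (Y * X) := by
  unfold flux
  refine Finset.card_bij' (fun i _ => X⁻¹ i) (fun i _ => X i) ?_ ?_ ?_ ?_
  · intro i hi
    rw [Finset.mem_filter]
    simpa [fromS, toS] using hi
  · intro i hi
    rw [Finset.mem_filter] at hi
    simpa [fromS, toS] using hi
  · intro i _; simp
  · intro i _; simp

theorem card_to_low (a : ℕ) (Y : Perm (Fin n)) : (toS a Y \ lowS n a).card = flux a Y := by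
  rw [← card_low_to]
  exact Finset.card_sdiff_comm (card_toS a Y)

end fluxes

/-! ### the expectation -/

namespace BT

section expect

variable {α : Type*} [LinearOrder α] [Fintype α]

/-- the joint weight of the values of the two children of a node -/
noncomputable def HH (l r : BT α) (P : Perm α → ℝ) (z : Perm α) : ℝ := P z / fac r.set l.set z

theorem law_node (l r : BT α) (P : Perm α → ℝ) (a : l.Conf) (b : r.Conf) :
    (node l r).law P (a, b) = HH l r P (r.val b * l.val a) *
      (l.ker (l.val a) a * r.ker (r.val b) b) := by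
  unfold law HH
  show P (r.val b * l.val a) * (if r.val b * l.val a = r.val b * l.val a then
    l.ker (l.val a) a * r.ker (r.val b) b / fac r.set l.set (r.val b * l.val a) else 0) = _
  rw [if_pos rfl]; ring

theorem ker_eq_zero_of_ne (t : BT α) {z : Perm α} {c : t.Conf} (h : z ≠ t.val c) :
    t.ker z c = 0 := by
  by_contra hc
  exact h (ker_ne_zero t z c hc).1.symm

theorem ker_eq_zero_of_not_mem (t : BT α) {z : Perm α} (c : t.Conf) (h : z ∉ t.set) :
    t.ker z c = 0 := by
  by_contra hc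
  exact h (ker_ne_zero t z c hc).2

theorem sum_law_node (l r : BT α) (P : Perm α → ℝ) (F : l.Conf → r.Conf → ℝ) :
    ∑ c : l.Conf × r.Conf, (node l r).law P c * F c.1 c.2 =
      ∑ z1 : Perm α, ∑ z2 : Perm α, HH l r P (z2 * z1) *
        ∑ a, ∑ b, l.ker z1 a * r.ker z2 b * F a b := by
  classical
  rw [Fintype.sum_prod_type]
  have e : ∀ a : l.Conf, ∀ b : r.Conf, (node l r).law P (a, b) * F a b =
      ∑ z1 : Perm α, ∑ z2 : Perm α, HH l r P (z2 * z1) * (l.ker z1 a * r.ker z2 b * F a b) := by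
    intro a b
    rw [Finset.sum_eq_single (l.val a), Finset.sum_eq_single (r.val b), law_node]
    · ring
    · intro z _ hz
      rw [ker_eq_zero_of_ne r hz]; ring
    · intro h; exact absurd (Finset.mem_univ _) h
    · intro z _ hz
      refine Finset.sum_eq_zero fun z2 _ => ?_
      rw [ker_eq_zero_of_ne l hz]; ring
    · intro h; exact absurd (Finset.mem_univ _) h
  rw [Finset.sum_congr rfl fun a _ => Finset.sum_congr rfl fun b _ => e a b]
  rw [Finset.sum_congr rfl fun a _ => Finset.sum_comm, Finset.sum_comm]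
  refine Finset.sum_congr rfl fun z1 _ => ?_
  rw [Finset.sum_congr rfl fun a _ => Finset.sum_comm, Finset.sum_comm]
  refine Finset.sum_congr rfl fun z2 _ => ?_
  rw [Finset.mul_sum]
  refine Finset.sum_congr rfl fun a _ => ?_
  rw [Finset.mul_sum]

/-- one pair: the exchange in both halves is dominated by the exchange in exactly one half. -/
theorem pair_bound (l r : BT α) (hl : l.Ok) (hr : r.Ok) {P : Perm α → ℝ}
    (h0 : ∀ z ∈ (node l r).set, 0 ≤ P z) (hP : IncOn (node l r).set P)
    {i j : α} (hji : j < i)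
    (eA : l.Conf → ℝ) (eB : r.Conf → ℝ) (gX : l.Conf → ℝ) (gY : r.Conf → ℝ)
    (G : l.Conf → r.Conf → ℝ)
    (eA0 : ∀ a, 0 ≤ eA a) (eA1 : ∀ a, eA a ≤ 1) (eB0 : ∀ b, 0 ≤ eB b) (eB1 : ∀ b, eB b ≤ 1)
    (gX0 : ∀ a, 0 ≤ gX a) (gY0 : ∀ b, 0 ≤ gY b)
    (GX : ∀ a b, G a b * eA a ≤ gX a * eA a) (GY : ∀ a b, G a b * eB b ≤ gY b * eB b)
    (hA : ∀ z : Perm α, z⁻¹ j < z⁻¹ i → 2 * ∑ a, l.ker z a * eA a ≤ ind l.set z)
    (hB : ∀ z : Perm α, z j < z i → 2 * ∑ b, r.ker z b * eB b ≤ ind r.set z) :
    ∑ c : l.Conf × r.Conf, (node l r).law P c * (G c.1 c.2 * eA c.1 * eB c.2) ≤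
      ∑ c : l.Conf × r.Conf, (node l r).law P c * (gX c.1 * eA c.1 * (1 - eB c.2)) +
      3 * ∑ c : l.Conf × r.Conf, (node l r).law P c * (gY c.2 * eB c.2 * (1 - eA c.1)) := by
  classical
  have hdl := isDown_set hl
  have hdr := isDown_set hr
  rw [sum_law_node l r P fun a b => G a b * eA a * eB b,
    sum_law_node l r P fun a b => gX a * eA a * (1 - eB b),
    sum_law_node l r P fun a b => gY b * eB b * (1 - eA a)]
  set H := HH l r P with hH
  -- one-sided conditional expectations
  set Φ : Perm α → ℝ := fun z => ∑ a, l.ker z a * (gX a * eA a) with hΦ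
  set Φ' : Perm α → ℝ := fun z => ∑ a, l.ker z a * eA a with hΦ'
  set Ψ : Perm α → ℝ := fun z => ∑ b, r.ker z b * eB b with hΨ
  set Ψ' : Perm α → ℝ := fun z => ∑ b, r.ker z b * (gY b * eB b) with hΨ'
  have Φ0 : ∀ z, 0 ≤ Φ z := fun z => Finset.sum_nonneg fun a _ =>
    mul_nonneg (ker_nonneg l z a) (mul_nonneg (gX0 a) (eA0 a))
  have Φ'0 : ∀ z, 0 ≤ Φ' z := fun z => Finset.sum_nonneg fun a _ =>
    mul_nonneg (ker_nonneg l z a) (eA0 a)
  have Ψ0 : ∀ z, 0 ≤ Ψ z := fun z => Finset.sum_nonneg fun b _ =>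
    mul_nonneg (ker_nonneg r z b) (eB0 b)
  have Ψ'0 : ∀ z, 0 ≤ Ψ' z := fun z => Finset.sum_nonneg fun b _ =>
    mul_nonneg (ker_nonneg r z b) (mul_nonneg (gY0 b) (eB0 b))
  have Φ'1 : ∀ z, Φ' z ≤ ind l.set z := fun z => by
    rw [← sum_ker l z]
    exact Finset.sum_le_sum fun a _ => mul_le_of_le_one_right (ker_nonneg l z a) (eA1 a)
  have Ψ1 : ∀ z, Ψ z ≤ ind r.set z := fun z => by
    rw [← sum_ker r z]
    exact Finset.sum_le_sum fun a _ => mul_le_of_le_one_right (ker_nonneg r z a) (eB1 a)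
  have Ψ'z : ∀ z, z ∉ r.set → Ψ' z = 0 := fun z hz => Finset.sum_eq_zero fun b _ => by
    rw [ker_eq_zero_of_not_mem r b hz, zero_mul]
  -- the three inner sums
  have t1 : ∀ z1 z2 : Perm α, ∑ a, ∑ b, l.ker z1 a * r.ker z2 b * (G a b * eA a * eB b) ≤
      Φ z1 * Ψ z2 := by
    intro z1 z2
    rw [hΦ, hΨ]
    simp only
    rw [Finset.sum_mul_sum]
    refine Finset.sum_le_sum fun a _ => Finset.sum_le_sum fun b _ => ?_
    have h1 := mul_le_mul_of_nonneg_right (GX a b) (eB0 b)
    have h2 := mul_nonneg (ker_nonneg l z1 a) (ker_nonneg r z2 b)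
    calc l.ker z1 a * r.ker z2 b * (G a b * eA a * eB b)
        ≤ l.ker z1 a * r.ker z2 b * (gX a * eA a * eB b) := mul_le_mul_of_nonneg_left h1 h2
      _ = _ := by ring
  have t2 : ∀ z1 z2 : Perm α, ∑ a, ∑ b, l.ker z1 a * r.ker z2 b * (G a b * eA a * eB b) ≤
      Φ' z1 * Ψ' z2 := by
    intro z1 z2
    rw [hΦ', hΨ']
    simp only
    rw [Finset.sum_mul_sum]
    refine Finset.sum_le_sum fun a _ => Finset.sum_le_sum fun b _ => ?_
    have h1 := mul_le_mul_of_nonneg_right (GY a b) (eA0 a)
    have h2 := mul_nonneg (ker_nonneg l z1 a) (ker_nonneg r z2 b)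
    calc l.ker z1 a * r.ker z2 b * (G a b * eA a * eB b)
        = l.ker z1 a * r.ker z2 b * (G a b * eB b * eA a) := by ring
      _ ≤ l.ker z1 a * r.ker z2 b * (gY b * eB b * eA a) := mul_le_mul_of_nonneg_left h1 h2
      _ = _ := by ring
  have r1 : ∀ z1 z2 : Perm α, ∑ a, ∑ b, l.ker z1 a * r.ker z2 b * (gX a * eA a * (1 - eB b)) =
      Φ z1 * (ind r.set z2 - Ψ z2) := by
    intro z1 z2
    rw [hΦ, hΨ, ← sum_ker r z2]
    simp only
    rw [← Finset.sum_sub_distrib, Finset.sum_mul_sum]
    exact Finset.sum_congr rfl fun a _ => Finset.sum_congr rfl fun b _ => by ring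
  have r2 : ∀ z1 z2 : Perm α, ∑ a, ∑ b, l.ker z1 a * r.ker z2 b * (gY b * eB b * (1 - eA a)) =
      (ind l.set z1 - Φ' z1) * Ψ' z2 := by
    intro z1 z2
    rw [hΦ', hΨ', ← sum_ker l z1]
    simp only
    rw [← Finset.sum_sub_distrib, Finset.sum_mul_sum]
    exact Finset.sum_congr rfl fun a _ => Finset.sum_congr rfl fun b _ => by ring
  simp only [r1, r2]
  -- nonnegativity of the weighted terms
  have H0 : ∀ z ∈ (node l r).set, 0 ≤ H z := fun z hz => div_nonneg (h0 z hz) (fac_nonneg _ _ _)
  have HU : ∀ z z' : Perm α, Up z z' → z ∈ (node l r).set → z' ∈ (node l r).set → H z ≤ H z' := by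
    intro z z' hu hz hz'
    have hz2 : z' ∈ r.set * l.set := hz'
    have f1 : 0 < fac r.set l.set z' := fac_pos_iff.2 hz2
    exact div_le_div₀ (h0 z' hz') (hP z z' hz hz' hu) f1 (fac_dec hdr hdl z z' hu)
  have mem : ∀ z1 z2 : Perm α, z1 ∈ l.set → z2 ∈ r.set → z2 * z1 ∈ (node l r).set :=
    fun z1 z2 h1 h2 => Finset.mul_mem_mul h2 h1
  have RY0 : ∀ z1 z2 : Perm α, 0 ≤ H (z2 * z1) * ((ind l.set z1 - Φ' z1) * Ψ' z2) := by
    intro z1 z2
    by_cases h1 : z1 ∈ l.set
    · by_cases h2 : z2 ∈ r.set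
      · exact mul_nonneg (H0 _ (mem _ _ h1 h2))
          (mul_nonneg (sub_nonneg.2 (Φ'1 z1)) (Ψ'0 z2))
      · rw [Ψ'z z2 h2]; simp
    · have e1 : ind l.set z1 = 0 := if_neg h1
      have e2 : Φ' z1 = 0 := le_antisymm (by rw [← e1]; exact Φ'1 z1) (Φ'0 z1)
      rw [e1, e2]; simp
  have RX0 : ∀ z1 z2 : Perm α, 0 ≤ H (z2 * z1) * (Φ z1 * (ind r.set z2 - Ψ z2)) := by
    intro z1 z2
    by_cases h1 : z1 ∈ l.set
    · by_cases h2 : z2 ∈ r.set
      · exact mul_nonneg (H0 _ (mem _ _ h1 h2))
          (mul_nonneg (Φ0 z1) (sub_nonneg.2 (Ψ1 z2)))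
      · have e1 : ind r.set z2 = 0 := if_neg h2
        have e2 : Ψ z2 = 0 := le_antisymm (by rw [← e1]; exact Ψ1 z2) (Ψ0 z2)
        rw [e1, e2]; simp
    · have e2 : Φ z1 = 0 := Finset.sum_eq_zero fun a _ => by
        rw [ker_eq_zero_of_not_mem l a h1, zero_mul]
      rw [e2]; simp
  -- the pointwise inequality
  have hpt : ∀ z1 z2 : Perm α,
      H (z2 * z1) * ∑ a, ∑ b, l.ker z1 a * r.ker z2 b * (G a b * eA a * eB b) ≤
      H (z2 * z1) * (Φ z1 * (ind r.set z2 - Ψ z2)) +
      (H (z2 * z1) * ((ind l.set z1 - Φ' z1) * Ψ' z2) +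
      2 * (H (z2 * (swap i j * z1)) * ((ind l.set (swap i j * z1) - Φ' (swap i j * z1)) *
        Ψ' z2))) := by
    intro z1 z2
    have n1 := RX0 z1 z2
    have n2 := RY0 z1 z2
    have n3 := RY0 (swap i j * z1) z2
    by_cases h1 : z1 ∈ l.set
    swap
    · have : ∑ a, ∑ b, l.ker z1 a * r.ker z2 b * (G a b * eA a * eB b) = 0 :=
        Finset.sum_eq_zero fun a _ => Finset.sum_eq_zero fun b _ => by
          rw [ker_eq_zero_of_not_mem l a h1]; ring
      rw [this, mul_zero]; linarith
    by_cases h2 : z2 ∈ r.set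
    swap
    · have : ∑ a, ∑ b, l.ker z1 a * r.ker z2 b * (G a b * eA a * eB b) = 0 :=
        Finset.sum_eq_zero fun a _ => Finset.sum_eq_zero fun b _ => by
          rw [ker_eq_zero_of_not_mem r b h2]; ring
      rw [this, mul_zero]; linarith
    have hm := mem _ _ h1 h2
    have hH0 := H0 _ hm
    by_cases hbe : z2 j < z2 i
    · -- not crossed in `z2`
      have h3 := hB z2 hbe
      have h4 : Φ z1 * Ψ z2 ≤ Φ z1 * (ind r.set z2 - Ψ z2) :=
        mul_le_mul_of_nonneg_left (by linarith) (Φ0 z1)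
      have h5 := mul_le_mul_of_nonneg_left ((t1 z1 z2).trans h4) hH0
      linarith
    by_cases hal : z1⁻¹ j < z1⁻¹ i
    · -- not crossed in `z1`
      have h3 := hA z1 hal
      have h4 : Φ' z1 * Ψ' z2 ≤ (ind l.set z1 - Φ' z1) * Ψ' z2 :=
        mul_le_mul_of_nonneg_right (by linarith) (Ψ'0 z2)
      have h5 := mul_le_mul_of_nonneg_left ((t2 z1 z2).trans h4) hH0
      linarith
    · -- crossed in both
      have hne : z1⁻¹ i ≠ z1⁻¹ j := fun h => hji.ne' (z1⁻¹.injective h)
      have hne2 : z2 i ≠ z2 j := fun h => hji.ne' (z2.injective h)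
      have hal' : z1⁻¹ i < z1⁻¹ j := lt_of_le_of_ne (not_lt.1 hal) hne
      have hbe' : z2 i < z2 j := lt_of_le_of_ne (not_lt.1 hbe) hne2
      -- going down in `z1`
      have u1 : Up (swap i j * z1) z1 := by
        refine ⟨z1⁻¹ i, z1⁻¹ j, hal', ?_, ?_⟩
        · simpa using hji
        · rw [mul_assoc, mul_swap_eq]; simp [← mul_assoc]
      have m1 : swap i j * z1 ∈ l.set := hdl _ _ u1 h1
      have m2 := mem _ _ m1 h2
      -- going up in the product
      have u2 : Up (z2 * z1) (z2 * (swap i j * z1)) := by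
        refine ⟨z1⁻¹ i, z1⁻¹ j, hal', ?_, ?_⟩
        · simpa using hbe'
        · rw [mul_assoc, mul_swap_eq]; simp
      have hHle := HU _ _ u2 hm m2
      have h3 := hA (swap i j * z1) (by simpa [mul_inv_rev] using hal')
      have e1 : ind l.set (swap i j * z1) = 1 := if_pos m1
      have e2 : ind l.set z1 = 1 := if_pos h1
      have h4 : Φ' z1 ≤ 2 * (ind l.set (swap i j * z1) - Φ' (swap i j * z1)) := by
        have := Φ'1 z1
        rw [e2] at this
        have h5 : 2 * Φ' (swap i j * z1) ≤ ind l.set (swap i j * z1) := h3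
        rw [e1] at h5 ⊢
        linarith
      have h5 : Φ' z1 * Ψ' z2 ≤ 2 * ((ind l.set (swap i j * z1) - Φ' (swap i j * z1)) * Ψ' z2) := by
        have := mul_le_mul_of_nonneg_right h4 (Ψ'0 z2)
        linarith
      have h6 : 0 ≤ 2 * ((ind l.set (swap i j * z1) - Φ' (swap i j * z1)) * Ψ' z2) :=
        (mul_nonneg (Φ'0 z1) (Ψ'0 z2)).trans h5
      have h7 := mul_le_mul_of_nonneg_left ((t2 z1 z2).trans h5) hH0
      have h8 := mul_le_mul_of_nonneg_right hHle h6
      linarith
  -- summation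
  refine (Finset.sum_le_sum fun z1 _ => Finset.sum_le_sum fun z2 _ => hpt z1 z2).trans ?_
  have reidx : ∑ z1 : Perm α, ∑ z2 : Perm α,
      (H (z2 * (swap i j * z1)) * ((ind l.set (swap i j * z1) - Φ' (swap i j * z1)) * Ψ' z2)) =
      ∑ z1 : Perm α, ∑ z2 : Perm α, H (z2 * z1) * ((ind l.set z1 - Φ' z1) * Ψ' z2) :=
    Fintype.sum_equiv (Equiv.mulLeft (swap i j)) _ _ fun z => rfl
  have split : ∑ z1 : Perm α, ∑ z2 : Perm α,
      (H (z2 * z1) * (Φ z1 * (ind r.set z2 - Ψ z2)) +
      (H (z2 * z1) * ((ind l.set z1 - Φ' z1) * Ψ' z2) +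
      2 * (H (z2 * (swap i j * z1)) * ((ind l.set (swap i j * z1) - Φ' (swap i j * z1)) *
        Ψ' z2)))) =
      ∑ z1 : Perm α, ∑ z2 : Perm α, H (z2 * z1) * (Φ z1 * (ind r.set z2 - Ψ z2)) +
      (∑ z1 : Perm α, ∑ z2 : Perm α, H (z2 * z1) * ((ind l.set z1 - Φ' z1) * Ψ' z2) +
      2 * ∑ z1 : Perm α, ∑ z2 : Perm α,
        (H (z2 * (swap i j * z1)) * ((ind l.set (swap i j * z1) - Φ' (swap i j * z1)) *
          Ψ' z2))) := by
    simp only [Finset.sum_add_distrib, ← Finset.mul_sum]
  rw [split, reidx]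
  linarith

end expect

section main

variable {n : ℕ}

/-- **The linear mixing lemma at the LCA cut.**  The window `W = X Y` consists of a suffix `X` of
the left child (the leaves from number `m` on) and a prefix `Y` of the right child (`k` leaves) of a
node whose law is nonnegative and Bruhat-increasing. -/
theorem lca_max (l r : BT (Fin n)) (hl : l.Ok) (hr : r.Ok) {P : Perm (Fin n) → ℝ}
    (h0 : ∀ z ∈ (node l r).set, 0 ≤ P z) (hP : IncOn (node l r).set P) (m k a : ℕ) :
    ∑ c : l.Conf × r.Conf, (node l r).law P c *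
        max (flux a (l.val c.1 * (l.pre m c.1)⁻¹) : ℝ) (flux a (r.pre k c.2) : ℝ) ≤
      10 * ∑ c : l.Conf × r.Conf, (node l r).law P c *
        (flux a (r.pre k c.2 * (l.val c.1 * (l.pre m c.1)⁻¹)) : ℝ) := by
  classical
  set X : l.Conf → Perm (Fin n) := fun x => l.val x * (l.pre m x)⁻¹ with hX
  set Y : r.Conf → Perm (Fin n) := fun y => r.pre k y with hY
  set S := lowS n a with hS
  set A : l.Conf → Finset (Fin n) := fun x => fromS a (X x) with hAdef
  set B : r.Conf → Finset (Fin n) := fun y => toS a (Y y) with hBdef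
  set G : l.Conf → r.Conf → ℝ := fun x y =>
    (max (flux a (X x) : ℝ) (flux a (Y y) : ℝ))⁻¹ with hG
  set gX : l.Conf → ℝ := fun x => (flux a (X x) : ℝ)⁻¹ with hgX
  set gY : r.Conf → ℝ := fun y => (flux a (Y y) : ℝ)⁻¹ with hgY
  have law0 : ∀ c : (node l r).Conf, 0 ≤ (node l r).law P c := law_nonneg h0
  -- the deterministic inequality
  have det : ∀ c : l.Conf × r.Conf, max (flux a (X c.1) : ℝ) (flux a (Y c.2) : ℝ) ≤
      ∑ t : Fin n × Fin n, G c.1 c.2 * ex S (A c.1) t * ex S (B c.2) t +
        2 * (flux a (Y c.2 * X c.1) : ℝ) := by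
    intro c
    have h := max_le_ex S (A c.1) (B c.2) (card_fromS a _) (card_toS a _)
      (x := (flux a (X c.1) : ℝ)) (y := (flux a (Y c.2) : ℝ))
      (w := (flux a (Y c.2 * X c.1) : ℝ))
      (by rw [card_from_low]) (by rw [card_to_low]) (by rw [card_from_to])
    rw [Finset.mul_sum] at h
    refine h.trans (le_of_eq ?_)
    congr 1
    exact Finset.sum_congr rfl fun t _ => by rw [hG]; ring
  -- sum over the configurations
  have s1 : ∑ c : l.Conf × r.Conf, (node l r).law P c *
      max (flux a (X c.1) : ℝ) (flux a (Y c.2) : ℝ) ≤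
      ∑ t : Fin n × Fin n, ∑ c : l.Conf × r.Conf, (node l r).law P c *
        (G c.1 c.2 * ex S (A c.1) t * ex S (B c.2) t) +
      2 * ∑ c : l.Conf × r.Conf, (node l r).law P c * (flux a (Y c.2 * X c.1) : ℝ) := by
    refine (Finset.sum_le_sum fun c _ => mul_le_mul_of_nonneg_left (det c) (law0 c)).trans
      (le_of_eq ?_)
    rw [Finset.sum_comm, Finset.mul_sum, ← Finset.sum_add_distrib]
    refine Finset.sum_congr rfl fun c _ => ?_
    rw [mul_add, Finset.mul_sum]
    ring
  -- the bound for one pair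
  have s2 : ∀ t : Fin n × Fin n, ∑ c : l.Conf × r.Conf, (node l r).law P c *
        (G c.1 c.2 * ex S (A c.1) t * ex S (B c.2) t) ≤
      ∑ c : l.Conf × r.Conf, (node l r).law P c *
        (gX c.1 * ex S (A c.1) t * (1 - ex S (B c.2) t)) +
      3 * ∑ c : l.Conf × r.Conf, (node l r).law P c *
        (gY c.2 * ex S (B c.2) t * (1 - ex S (A c.1) t)) := by
    rintro ⟨i, j⟩
    by_cases hij : i ∉ S ∧ j ∈ S
    swap
    · -- trivial pairs
      have z1 : ∀ C : Finset (Fin n), ex S C (i, j) = 0 := by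
        intro C
        unfold ex
        refine if_neg fun hc => hij ?_
        simp only [Finset.mem_sdiff] at hc
        exact ⟨hc.1.2, hc.2.1⟩
      simp only [z1]
      simp
    have hi : a ≤ (i : ℕ) := by
      have := hij.1
      rw [hS] at this
      simpa [lowS] using this
    have hj : (j : ℕ) < a := by
      have := hij.2
      rw [hS] at this
      simpa [lowS] using this
    have hji : j < i := by
      rw [Fin.lt_def]; omega
    refine pair_bound l r hl hr h0 hP hji (fun x => ex S (A x) (i, j)) (fun y => ex S (B y) (i, j))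
      gX gY G (fun _ => ex_nonneg _ _ _) (fun _ => ex_le_one _ _ _) (fun _ => ex_nonneg _ _ _)
      (fun _ => ex_le_one _ _ _) (fun x => inv_nonneg.2 (Nat.cast_nonneg _))
      (fun y => inv_nonneg.2 (Nat.cast_nonneg _)) ?_ ?_ ?_ ?_
    · -- `G ≤ gX` where the pair is exchanged in `X`
      intro x y
      show G x y * ex S (A x) (i, j) ≤ gX x * ex S (A x) (i, j)
      by_cases he : i ∈ A x \ S ∧ j ∈ S \ A x
      · have hpos : 0 < flux a (X x) := by
          rw [← card_from_low]
          exact Finset.card_pos.2 ⟨i, he.1⟩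
        have hpos' : (0 : ℝ) < flux a (X x) := by exact_mod_cast hpos
        exact mul_le_mul_of_nonneg_right (inv_anti₀ hpos' (le_max_left _ _)) (ex_nonneg _ _ _)
      · have : ex S (A x) (i, j) = 0 := if_neg he
        rw [this]; simp
    · intro x y
      show G x y * ex S (B y) (i, j) ≤ gY y * ex S (B y) (i, j)
      by_cases he : i ∈ B y \ S ∧ j ∈ S \ B y
      · have hpos : 0 < flux a (Y y) := by
          rw [← card_to_low]
          exact Finset.card_pos.2 ⟨i, he.1⟩
        have hpos' : (0 : ℝ) < flux a (Y y) := by exact_mod_cast hpos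
        exact mul_le_mul_of_nonneg_right (inv_anti₀ hpos' (le_max_right _ _)) (ex_nonneg _ _ _)
      · have : ex S (B y) (i, j) = 0 := if_neg he
        rw [this]; simp
    · -- step 2 for the left child
      intro z hz
      have h1 := FF_le l hl m z (z⁻¹ j) (z⁻¹ i) hz (by simpa using hji)
      have hdown : ind l.set (z * swap (z⁻¹ j) (z⁻¹ i)) ≤ ind l.set z :=
        ind_pair (isDown_set hl) hz (by simpa using hji)
      have h2 : ∑ x, l.ker z x * ex S (A x) (i, j) ≤ l.FF m z (z⁻¹ j) (z⁻¹ i) := by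
        unfold FF
        refine Finset.sum_le_sum fun x _ => ?_
        by_cases hk : l.ker z x = 0
        · rw [hk]; simp
        refine mul_le_mul_of_nonneg_left ?_ (ker_nonneg l z x)
        have hv := (ker_ne_zero l z x hk).1
        by_cases he : i ∈ A x \ S ∧ j ∈ S \ A x
        · have e1 : ex S (A x) (i, j) = 1 := if_pos he
          simp only [Finset.mem_sdiff] at he
          have p1 := he.1.1
          have p2 := he.2.2
          rw [hAdef] at p1 p2
          simp only [fromS, Finset.mem_filter, Finset.mem_univ, true_and] at p1 p2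
          have hXinv : ∀ s, (X x)⁻¹ s = l.pre m x (z⁻¹ s) := by
            intro s
            rw [hX]
            simp only [mul_inv_rev, inv_inv, Perm.mul_apply, hv]
          rw [hXinv] at p1 p2
          have hlt : l.pre m x (z⁻¹ i) < l.pre m x (z⁻¹ j) := by
            rw [Fin.lt_def]; omega
          rw [e1, if_pos hlt]
        · have e1 : ex S (A x) (i, j) = 0 := if_neg he
          rw [e1]; split_ifs <;> norm_num
      linarith [h1.1, h1.2]
    · -- step 2 for the right child
      intro z hz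
      have h1 := FF_le r hr k z j i hji hz
      have hdown : ind r.set (z * swap j i) ≤ ind r.set z :=
        ind_pair (isDown_set hr) hji hz
      have h2 : ∑ y, r.ker z y * ex S (B y) (i, j) ≤ r.FF k z j i := by
        unfold FF
        refine Finset.sum_le_sum fun y _ => ?_
        refine mul_le_mul_of_nonneg_left ?_ (ker_nonneg r z y)
        by_cases he : i ∈ B y \ S ∧ j ∈ S \ B y
        · have e1 : ex S (B y) (i, j) = 1 := if_pos he
          simp only [Finset.mem_sdiff] at he
          have p1 := he.1.1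
          have p2 := he.2.2
          rw [hBdef] at p1 p2
          simp only [toS, Finset.mem_filter, Finset.mem_univ, true_and] at p1 p2
          have hlt : r.pre k y i < r.pre k y j := by
            rw [Fin.lt_def]
            change ((r.pre k y i : Fin n) : ℕ) < a at p1
            change ¬ ((r.pre k y j : Fin n) : ℕ) < a at p2
            omega
          rw [e1, if_pos hlt]
        · have e1 : ex S (B y) (i, j) = 0 := if_neg he
          rw [e1]; split_ifs <;> norm_num
      linarith [h1.1, h1.2]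
  -- the sums over the pairs
  have inv_mul_le : ∀ f w : ℝ, 0 ≤ w → f⁻¹ * (w * f + f * w) ≤ 2 * w := by
    intro f w hw
    by_cases hf : f = 0
    · rw [hf]; simp only [inv_zero, zero_mul]; linarith
    · refine le_of_eq ?_
      field_simp
      ring
  have s3 : ∀ c : l.Conf × r.Conf, ∑ t : Fin n × Fin n,
      gX c.1 * ex S (A c.1) t * (1 - ex S (B c.2) t) ≤ 2 * (flux a (Y c.2 * X c.1) : ℝ) := by
    intro c
    have h := sum_ex_not S (A c.1) (B c.2)
    have c1 : (A c.1 \ B c.2).card = flux a (Y c.2 * X c.1) := card_from_to a _ _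
    have c2 : (A c.1 \ S).card = flux a (X c.1) := card_from_low a _
    have c3 : (S \ A c.1).card = flux a (X c.1) := by
      rw [← c2]; exact Finset.card_sdiff_comm (card_fromS a _).symm
    have c4 : (B c.2 \ A c.1).card = flux a (Y c.2 * X c.1) := by
      rw [← c1]
      exact Finset.card_sdiff_comm ((card_toS a _).trans (card_fromS a _).symm)
    rw [c1, c2, c3, c4] at h
    have e : ∑ t : Fin n × Fin n, gX c.1 * ex S (A c.1) t * (1 - ex S (B c.2) t) =
        gX c.1 * ∑ t : Fin n × Fin n, ex S (A c.1) t * (1 - ex S (B c.2) t) := by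
      rw [Finset.mul_sum]; exact Finset.sum_congr rfl fun t _ => by ring
    rw [e]
    exact (mul_le_mul_of_nonneg_left h (inv_nonneg.2 (Nat.cast_nonneg _))).trans
      (inv_mul_le _ _ (Nat.cast_nonneg _))
  have s4 : ∀ c : l.Conf × r.Conf, ∑ t : Fin n × Fin n,
      gY c.2 * ex S (B c.2) t * (1 - ex S (A c.1) t) ≤ 2 * (flux a (Y c.2 * X c.1) : ℝ) := by
    intro c
    have h := sum_ex_not S (B c.2) (A c.1)
    have c1 : (A c.1 \ B c.2).card = flux a (Y c.2 * X c.1) := card_from_to a _ _
    have c2 : (B c.2 \ S).card = flux a (Y c.2) := card_to_low a _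
    have c3 : (S \ B c.2).card = flux a (Y c.2) := card_low_to a _
    have c4 : (B c.2 \ A c.1).card = flux a (Y c.2 * X c.1) := by
      rw [← c1]
      exact Finset.card_sdiff_comm ((card_toS a _).trans (card_fromS a _).symm)
    rw [c1, c2, c3, c4] at h
    have e : ∑ t : Fin n × Fin n, gY c.2 * ex S (B c.2) t * (1 - ex S (A c.1) t) =
        gY c.2 * ∑ t : Fin n × Fin n, ex S (B c.2) t * (1 - ex S (A c.1) t) := by
      rw [Finset.mul_sum]; exact Finset.sum_congr rfl fun t _ => by ring
    rw [e]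
    exact (mul_le_mul_of_nonneg_left h (inv_nonneg.2 (Nat.cast_nonneg _))).trans
      (inv_mul_le _ _ (Nat.cast_nonneg _))
  -- conclusion
  have s5 : ∑ t : Fin n × Fin n, ∑ c : l.Conf × r.Conf, (node l r).law P c *
        (gX c.1 * ex S (A c.1) t * (1 - ex S (B c.2) t)) ≤
      2 * ∑ c : l.Conf × r.Conf, (node l r).law P c * (flux a (Y c.2 * X c.1) : ℝ) := by
    rw [Finset.sum_comm, Finset.mul_sum]
    refine Finset.sum_le_sum fun c _ => ?_
    rw [← Finset.mul_sum]
    have := mul_le_mul_of_nonneg_left (s3 c) (law0 c)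
    linarith
  have s6 : ∑ t : Fin n × Fin n, ∑ c : l.Conf × r.Conf, (node l r).law P c *
        (gY c.2 * ex S (B c.2) t * (1 - ex S (A c.1) t)) ≤
      2 * ∑ c : l.Conf × r.Conf, (node l r).law P c * (flux a (Y c.2 * X c.1) : ℝ) := by
    rw [Finset.sum_comm, Finset.mul_sum]
    refine Finset.sum_le_sum fun c _ => ?_
    rw [← Finset.mul_sum]
    have := mul_le_mul_of_nonneg_left (s4 c) (law0 c)
    linarith
  have s7 := Finset.sum_le_sum fun (t : Fin n × Fin n) (_ : t ∈ Finset.univ) => s2 t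
  rw [Finset.sum_add_distrib, ← Finset.mul_sum] at s7
  linarith

end main

end BT

end VPBruhat
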