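/-
P235-M, (C2) of helper882's common note: mixing at the LCA cut, by helper620.
Windows of a tree are named by numbers of leaves: the window `[m, n)` has the product
`pre n * (pre m)⁻¹`; only helper549's `flux` is used.
-/
import Vale.Agent.P235.R2.H620.Lca

namespace VPBruhat

open Equiv Finset

section flux

variable {n : ℕ}

theorem flux_one (a : ℕ) : flux a (1 : Perm (Fin n)) = 0 := by
  unfold flux
  rw [Finset.card_eq_zero, Finset.filter_eq_empty_iff]
  intro x _ h
  simp only [Perm.one_apply] at h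
  omega

theorem flux_inv (a : ℕ) (X : Perm (Fin n)) : flux a X⁻¹ = flux a X := by
  rw [← card_to_low a X⁻¹, ← card_from_low a X]
  congr 1

/-- the triangle inequality for the flux -/
theorem flux_mul_le (a : ℕ) (Y X : Perm (Fin n)) : flux a (Y * X) ≤ flux a Y + flux a X := by
  rw [← card_from_to, ← card_from_low a X, ← card_low_to a Y]
  have : fromS a X \ toS a Y ⊆ (lowS n a \ toS a Y) ∪ (fromS a X \ lowS n a) := by
    intro i hi
    simp only [Finset.mem_sdiff, Finset.mem_union] at hi ⊢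
    by_cases h : i ∈ lowS n a
    · exact Or.inl ⟨h, hi.2⟩
    · exact Or.inr ⟨hi.1, h⟩
  exact (Finset.card_le_card this).trans (Finset.card_union_le _ _)

theorem flux_le_mul_right (a : ℕ) (Y X : Perm (Fin n)) :
    flux a Y ≤ flux a (Y * X) + flux a X := by
  have h := flux_mul_le a (Y * X) X⁻¹
  rwa [mul_inv_cancel_right, flux_inv] at h

theorem flux_le_mul_left (a : ℕ) (Y X : Perm (Fin n)) :
    flux a X ≤ flux a (Y * X) + flux a Y := by
  have h := flux_mul_le a Y⁻¹ (Y * X)
  rw [inv_mul_cancel_left, flux_inv] at h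
  omega

end flux

namespace BT

variable {N : ℕ}

/-- expectation of the flux of the window `[m, n)` over the level `a` -/
noncomputable def EF (t : BT (Fin N)) (P : Perm (Fin N) → ℝ) (a m n : ℕ) : ℝ :=
  ∑ c, t.law P c * (flux a (t.pre n c * (t.pre m c)⁻¹) : ℝ)

theorem EF_nonneg {t : BT (Fin N)} {P : Perm (Fin N) → ℝ} (h0 : ∀ z ∈ t.set, 0 ≤ P z)
    (a m n : ℕ) : 0 ≤ t.EF P a m n :=
  Finset.sum_nonneg fun c _ => mul_nonneg (law_nonneg h0 c) (Nat.cast_nonneg _)

theorem EF_self (t : BT (Fin N)) (P : Perm (Fin N) → ℝ) (a m : ℕ) : t.EF P a m m = 0 := by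
  unfold EF
  refine Finset.sum_eq_zero fun c _ => ?_
  rw [mul_inv_cancel, flux_one]; simp

theorem EF_symm (t : BT (Fin N)) (P : Perm (Fin N) → ℝ) (a m n : ℕ) :
    t.EF P a m n = t.EF P a n m := by
  unfold EF
  refine Finset.sum_congr rfl fun c _ => ?_
  rw [← flux_inv a (t.pre m c * (t.pre n c)⁻¹), mul_inv_rev, inv_inv]

/-- the triangle inequality -/
theorem EF_triangle {t : BT (Fin N)} {P : Perm (Fin N) → ℝ} (h0 : ∀ z ∈ t.set, 0 ≤ P z)
    (a m k n : ℕ) : t.EF P a m n ≤ t.EF P a m k + t.EF P a k n := by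
  unfold EF
  rw [← Finset.sum_add_distrib]
  refine Finset.sum_le_sum fun c _ => ?_
  rw [← mul_add]
  refine mul_le_mul_of_nonneg_left ?_ (law_nonneg h0 c)
  have h := flux_mul_le a (t.pre n c * (t.pre k c)⁻¹) (t.pre k c * (t.pre m c)⁻¹)
  have e : t.pre n c * (t.pre k c)⁻¹ * (t.pre k c * (t.pre m c)⁻¹) =
      t.pre n c * (t.pre m c)⁻¹ := by group
  rw [e] at h
  have h' : ((flux a (t.pre n c * (t.pre m c)⁻¹) : ℕ) : ℝ) ≤
      ((flux a (t.pre n c * (t.pre k c)⁻¹) + flux a (t.pre k c * (t.pre m c)⁻¹) : ℕ) : ℝ) := by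
    exact_mod_cast h
  push_cast at h'
  linarith

/-- the law of the left child -/
theorem EF_left (l r : BT (Fin N)) (P : Perm (Fin N) → ℝ) (a : ℕ) {m n : ℕ} (hm : m ≤ l.size)
    (hn : n ≤ l.size) : (node l r).EF P a m n = l.EF (margR r.set l.set P) a m n := by
  unfold EF
  show ∑ c : l.Conf × r.Conf, (node l r).law P c *
    (flux a ((node l r).pre n c * ((node l r).pre m c)⁻¹) : ℝ) = _
  rw [Fintype.sum_prod_type]
  refine Finset.sum_congr rfl fun x _ => ?_
  rw [← sum_right l r P x, Finset.sum_mul]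
  refine Finset.sum_congr rfl fun y _ => ?_
  have e1 : (node l r).pre n (x, y) = l.pre n x := pre_node_left l r hn (x, y)
  have e2 : (node l r).pre m (x, y) = l.pre m x := pre_node_left l r hm (x, y)
  rw [e1, e2]

/-- the law of the right child -/
theorem EF_right (l r : BT (Fin N)) (P : Perm (Fin N) → ℝ) (a : ℕ) {m n : ℕ} (hm : l.size ≤ m)
    (hn : l.size ≤ n) : (node l r).EF P a m n =
      r.EF (margL r.set l.set P) a (m - l.size) (n - l.size) := by
  unfold EF
  show ∑ c : l.Conf × r.Conf, (node l r).law P c *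
    (flux a ((node l r).pre n c * ((node l r).pre m c)⁻¹) : ℝ) = _
  rw [Fintype.sum_prod_type, Finset.sum_comm]
  refine Finset.sum_congr rfl fun y _ => ?_
  rw [← sum_left l r P y, Finset.sum_mul]
  refine Finset.sum_congr rfl fun x _ => ?_
  have e1 : (node l r).pre n (x, y) = r.pre (n - l.size) y * l.val x :=
    pre_node_right l r hn (x, y)
  have e2 : (node l r).pre m (x, y) = r.pre (m - l.size) y * l.val x :=
    pre_node_right l r hm (x, y)
  rw [e1, e2, mul_inv_rev, mul_assoc, mul_inv_cancel_left]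

/-- **(C2), both halves at once.** -/
theorem EF_lca (l r : BT (Fin N)) (hl : l.Ok) (hr : r.Ok) {P : Perm (Fin N) → ℝ}
    (h0 : ∀ z ∈ (node l r).set, 0 ≤ P z) (hP : IncOn (node l r).set P) (a : ℕ) {m n : ℕ}
    (hm : m ≤ l.size) (hn : l.size ≤ n) :
    (node l r).EF P a m l.size ≤ 10 * (node l r).EF P a m n ∧
    (node l r).EF P a l.size n ≤ 10 * (node l r).EF P a m n := by
  have key := lca_max l r hl hr h0 hP m (n - l.size) a
  have e0 : ∀ c : l.Conf × r.Conf, (node l r).pre m c = l.pre m c.1 := fun c =>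
    pre_node_left l r hm c
  have e1 : ∀ c : l.Conf × r.Conf, (node l r).pre l.size c = l.val c.1 := fun c => by
    rw [← pre_top l l.size le_rfl c.1]; exact pre_node_left l r le_rfl c
  have e2 : ∀ c : l.Conf × r.Conf, (node l r).pre n c = r.pre (n - l.size) c.2 * l.val c.1 :=
    fun c => pre_node_right l r hn c
  have law0 : ∀ c : (node l r).Conf, 0 ≤ (node l r).law P c := law_nonneg h0
  have eR : ∑ c : l.Conf × r.Conf, (node l r).law P c *
        (flux a (r.pre (n - l.size) c.2 * (l.val c.1 * (l.pre m c.1)⁻¹)) : ℝ) =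
      (node l r).EF P a m n := by
    unfold EF
    show _ = ∑ c : l.Conf × r.Conf, (node l r).law P c *
      (flux a ((node l r).pre n c * ((node l r).pre m c)⁻¹) : ℝ)
    refine Finset.sum_congr rfl fun c _ => ?_
    rw [e0, e2, mul_assoc]
  rw [eR] at key
  constructor
  · refine le_trans ?_ key
    unfold EF
    show ∑ c : l.Conf × r.Conf, (node l r).law P c *
      (flux a ((node l r).pre l.size c * ((node l r).pre m c)⁻¹) : ℝ) ≤ _
    refine Finset.sum_le_sum fun c _ => mul_le_mul_of_nonneg_left ?_ (law0 c)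
    rw [e0, e1]
    exact le_max_left _ _
  · refine le_trans ?_ key
    unfold EF
    show ∑ c : l.Conf × r.Conf, (node l r).law P c *
      (flux a ((node l r).pre n c * ((node l r).pre l.size c)⁻¹) : ℝ) ≤ _
    refine Finset.sum_le_sum fun c _ => mul_le_mul_of_nonneg_left ?_ (law0 c)
    rw [e1, e2, mul_assoc, mul_inv_cancel, mul_one]
    exact le_max_right _ _

end BT

end VPBruhat
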