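/-
P235-M, (C4) of helper882's common note: quasi-monotonicity of the expected flux in the window,
by helper620, from (C2) (`EF_lca`) and the monotonicity for prefixes and suffixes of a node ((C3),
here the hypotheses `hpre`, `hsuf` about a hereditary class `Q` of trees).
-/
import Vale.Agent.P235.R2.H620.MixC2

namespace VPBruhat

open Equiv Finset

namespace BT

variable {N : ℕ}

/-- prefixes of the root: the expected flux is nondecreasing -/
def PrefMono (t : BT (Fin N)) : Prop :=
  ∀ P : Perm (Fin N) → ℝ, (∀ z ∈ t.set, 0 ≤ P z) → IncOn t.set P →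
    ∀ a m n : ℕ, m ≤ n → n ≤ t.size → t.EF P a 0 m ≤ t.EF P a 0 n

/-- suffixes of the root: the expected flux is nondecreasing in the window -/
def SufMono (t : BT (Fin N)) : Prop :=
  ∀ P : Perm (Fin N) → ℝ, (∀ z ∈ t.set, 0 ≤ P z) → IncOn t.set P →
    ∀ a m n : ℕ, m ≤ n → n ≤ t.size → t.EF P a n t.size ≤ t.EF P a m t.size

/-- **(C4)**: `E r_{W'} ≤ 20 E r_W` for all windows `W' ⊆ W` of a tree with a Bruhat-increasing
root law. -/
theorem EF_qm (Q : BT (Fin N) → Prop) (hQ : ∀ l r, Q (node l r) → Q l ∧ Q r)
    (hok : ∀ t, Q t → t.Ok) (hpre : ∀ t, Q t → PrefMono t) (hsuf : ∀ t, Q t → SufMono t) :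
    (t : BT (Fin N)) → Q t → {P : Perm (Fin N) → ℝ} → (∀ z ∈ t.set, 0 ≤ P z) →
    IncOn t.set P → (a m m' n' n : ℕ) → m ≤ m' → m' ≤ n' → n' ≤ n → n ≤ t.size →
    t.EF P a m' n' ≤ 20 * t.EF P a m n
  | leaf B, hq, P, h0, hP, a, m, m', n', n, h1, h2, h3, h4 => by
      have e0 := EF_nonneg h0 a m n
      have hn : n ≤ 1 := h4
      rcases Nat.eq_or_lt_of_le h2 with h | h
      · rw [h, EF_self]; linarith
      · have hm' : m' = 0 := by omega
        have hn' : n' = 1 := by omega
        have hm : m = 0 := by omega
        have hnn : n = 1 := by omega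
        rw [hm', hn', hm, hnn]
        rw [hm, hnn] at e0
        linarith
  | node l r, hq, P, h0, hP, a, m, m', n', n, h1, h2, h3, h4 => by
      obtain ⟨hql, hqr⟩ := hQ l r hq
      have hokl := hok l hql
      have hokr := hok r hqr
      have hdl := isDown_set hokl
      have hdr := isDown_set hokr
      have l0 : ∀ z ∈ l.set, 0 ≤ margR r.set l.set P z := fun z _ => margR_nonneg h0 z
      have lI : IncOn l.set (margR r.set l.set P) := margR_inc hdr hdl hP h0
      have r0 : ∀ z ∈ r.set, 0 ≤ margL r.set l.set P z := fun z _ => margL_nonneg h0 z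
      have rI : IncOn r.set (margL r.set l.set P) := margL_inc hdr hdl hP h0
      have hsize : (node l r).size = l.size + r.size := rfl
      rw [hsize] at h4
      rcases Nat.le_total n l.size with hn | hn
      · rw [EF_left l r P a (by omega) (by omega), EF_left l r P a (by omega) hn]
        exact EF_qm Q hQ hok hpre hsuf l hql l0 lI a m m' n' n h1 h2 h3 hn
      rcases Nat.le_total l.size m with hm | hm
      · rw [EF_right l r P a (by omega) (by omega), EF_right l r P a hm (by omega)]
        exact EF_qm Q hQ hok hpre hsuf r hqr r0 rI a _ _ _ _ (by omega) (by omega) (by omega)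
          (by omega)
      -- the window contains the cut between the two children
      obtain ⟨cX, cY⟩ := EF_lca l r hokl hokr h0 hP a hm hn
      -- suffixes of the left child
      have sX : ∀ s, m ≤ s → s ≤ l.size →
          (node l r).EF P a s l.size ≤ (node l r).EF P a m l.size := by
        intro s hs1 hs2
        rw [EF_left l r P a hs2 le_rfl, EF_left l r P a hm le_rfl]
        exact hsuf l hql _ l0 lI a m s hs1 hs2
      -- prefixes of the right child
      have sY : ∀ s, l.size ≤ s → s ≤ n →
          (node l r).EF P a l.size s ≤ (node l r).EF P a l.size n := by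
        intro s hs1 hs2
        rw [EF_right l r P a le_rfl hs1, EF_right l r P a le_rfl hn, Nat.sub_self]
        exact hpre r hqr _ r0 rI a _ _ (by omega) (by omega)
      rcases Nat.le_total n' l.size with hn' | hn'
      · have t1 := EF_triangle h0 a m' l.size n'
        rw [EF_symm (node l r) P a l.size n'] at t1
        have t2 := sX m' h1 (by omega)
        have t3 := sX n' (by omega) hn'
        linarith
      rcases Nat.le_total l.size m' with hm' | hm'
      · have t1 := EF_triangle h0 a m' l.size n'
        rw [EF_symm (node l r) P a m' l.size] at t1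
        have t2 := sY m' hm' (by omega)
        have t3 := sY n' hn' h3
        linarith
      · have t1 := EF_triangle h0 a m' l.size n'
        have t2 := sX m' h1 hm'
        have t3 := sY n' hn' h3
        linarith

end BT

end VPBruhat
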